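import Vale.Agent.Helper13.L1BassAb

/-!
# P184: the Hattori-Stallings trace of an `ℓ¹` idempotent vanishes at every class of
infinite order modulo commutators

Let `G` be any group and `e` an idempotent `q × q` matrix over the Banach group algebra
`ℓ¹(G)`, written as a function `e : G → Matrix (Fin q) (Fin q) ℂ` with absolutely summable
entries and `∑' h, e h * e (h⁻¹ * g) = e g` (convolution with the matrix product).
If no positive power of `g₀` lies in the commutator subgroup of `G`, i.e. the image of `g₀`
in the abelianisation has infinite order, then the Hattori-Stallings coefficient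
`τ_C(e) = ∑_{g ∈ C} trace (e g)` at the conjugacy class `C` of `g₀` is zero.

Proof (helper modules `Vale.Agent.Helper13.L1Conv`, `L1Trace`, `L1Bass`, `L1BassMatrix`,
`L1BassAb`, `TraceClose`): there is an additive `φ : G → ℝ` with `φ g₀ = 1`; the twists
`α_θ a = fun g => exp(i θ φ(g)) a(g)` are isometric automorphisms of the convolution ring,
`α_θ e → e` in `ℓ¹` norm as `θ → 0`, two idempotents at distance `< 1` have the same value
under every bounded trace (`τ(e) - τ(f) = τ((e - f)^(2k+1))` for all `k`), and
`τ_C(α_θ e) = exp(i θ) τ_C(e)`.
-/

namespace Vale.Agent.Results.P184.AbelianizationVanishing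

/-- **`ℓ¹`-Bass vanishing at classes of infinite order modulo commutators.**
For every group `G`, every `q`, every convolution idempotent `e : G → M_q(ℂ)` with
absolutely summable entries, and every `g₀ : G` no positive power of which lies in the
commutator subgroup, the sum of `trace (e g)` over the conjugates `g` of `g₀` is `0`. -/
theorem result (G : Type*) [Group G] (q : ℕ) (e : G → Matrix (Fin q) (Fin q) ℂ)
    (hsum : ∀ i j, Summable (fun g => ‖e g i j‖))
    (hidem : ∀ g i j, ∑' h, (e h * e (h⁻¹ * g)) i j = e g i j)
    (g₀ : G) (hg₀ : ∀ k : ℕ, 0 < k → g₀ ^ k ∉ commutator G) :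
    HasSum (fun g : {g : G // IsConj g₀ g} => Matrix.trace (e g.1)) 0 :=
  Helper13.L1Conv.matrix_vanishing_commutator e hsum hidem g₀ hg₀

end Vale.Agent.Results.P184.AbelianizationVanishing
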