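import Vale.Agent.Helper2.L1Conv

namespace Vale.Agent.Results.P184.CharacterVanishing

open scoped BigOperators

/-- For every group `G`, every idempotent `q × q` matrix `e` over the convolution algebra of
absolutely summable complex functions on `G`, and every additive real character `φ` of `G`:
the Hattori-Stallings coefficient of `e` at the conjugacy class of `g₀` vanishes whenever
`φ g₀ ≠ 0`. -/
theorem result {G : Type*} [Group G] (q : ℕ) (e : Fin q → Fin q → G → ℂ)
    (hs : ∀ i j, Summable fun g => ‖e i j g‖)
    (he : ∀ i j g, e i j g = ∑ k, ∑' h, e i k h * e k j (h⁻¹ * g))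
    (φ : G → ℝ) (hφ : ∀ g h, φ (g * h) = φ g + φ h) (g₀ : G) (h₀ : φ g₀ ≠ 0) :
    ∑ i, ∑' g : {g : G // IsConj g₀ g}, e i i g = 0 :=
  Vale.Agent.Helper2.L1Conv.character_vanishing q e hs he φ hφ g₀ h₀

end Vale.Agent.Results.P184.CharacterVanishing
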