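import Vale.Agent.Helper2.L1Rep

namespace Vale.Agent.Results.P184.DeformationCriterion

open scoped BigOperators

/-- Deformation criterion. Let `e` be an idempotent `q × q` matrix over the convolution algebra
of absolutely summable complex functions on a group `G`, and let `π θ` (`θ` real) be a family of
matrix representations of `G` of a fixed finite size with uniformly bounded entries, each entry
depending continuously on `θ`. Then the product of the character value `trace (π θ g₀)` with the
Hattori-Stallings coefficient of `e` at the conjugacy class of `g₀` does not depend on `θ`. -/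
theorem result {G : Type*} [Group G] (q : ℕ) (e : Fin q → Fin q → G → ℂ)
    (hs : ∀ i j, Summable fun g => ‖e i j g‖)
    (he : ∀ i j g, e i j g = ∑ k, ∑' h, e i k h * e k j (h⁻¹ * g))
    (m : ℕ) (π : ℝ → G → Matrix (Fin m) (Fin m) ℂ) (B : ℝ)
    (hπb : ∀ θ g k l, ‖π θ g k l‖ ≤ B) (hπ1 : ∀ θ, π θ 1 = 1)
    (hπm : ∀ θ g h, π θ (g * h) = π θ g * π θ h)
    (hπc : ∀ g k l, Continuous fun θ => π θ g k l) (g₀ : G) (θ θ' : ℝ) :
    Matrix.trace (π θ g₀) * (∑ i, ∑' g : {g : G // IsConj g₀ g}, e i i g)
      = Matrix.trace (π θ' g₀) * (∑ i, ∑' g : {g : G // IsConj g₀ g}, e i i g) :=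
  Vale.Agent.Helper2.L1Conv.deformation_criterion q e hs he π B hπb hπ1 hπm hπc g₀ θ θ'

end Vale.Agent.Results.P184.DeformationCriterion
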